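import Vale.Agent.H88.CT.Final
import Vale.Agent.H91.CT.Transfer

/-!
P328, conditional result: a sharp spectral-gap hypothesis for three-rowed contingency tables
implies an explicit polynomial mixing time of the lazy `2 x 2` heat-bath chain on every class
of `m x n` contingency tables, for all `m`, `n` and all margins.
-/

namespace Vale.Agent.Results.P328.A_ThreeRowReduction

open Finset Vale.Agent.H88.CT

theorem result (hyp : ThreeRowGap) (m n : ℕ) (hm : 2 ≤ m) (hn : 2 ≤ n)
    (r : Fin m → ℕ) (c : Fin n → ℕ) (ε : ℝ) (hε : 0 < ε) (t : ℕ)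
    (ht : (m : ℝ) * (m - 1) * ((n : ℝ) * (n - 1)) / 2
      * ((m : ℝ) * ∑ j, Real.log ((c j : ℝ) + 1) + 2 * Real.log (1 / ε)) ≤ t)
    (X : Omega r c) :
    (1 / 2 : ℝ) * ∑ Y, |(((1 / 2 : ℝ) • (1 + blockChain r c)) ^ t) X Y
        - 1 / (Fintype.card (Omega r c) : ℝ)| ≤ ε :=
  block_mixing_time (Vale.Agent.H91.CT.tripleHyp_of_threeRowGap hyp) hm hn r c ε hε t ht X

end Vale.Agent.Results.P328.A_ThreeRowReduction
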