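import Vale.Agent.H88.CT.Final

/-!
P328, unconditional comparison theorem: on every class of `m x n` contingency tables the
Dirichlet form of the `2 x 2` heat-bath chain dominates `2 / (n (n - 1))` times the Dirichlet
form of the chain that resamples two whole rows.
-/

namespace Vale.Agent.Results.P328.B_BlockComparison

open Finset Vale.Agent.H88.CT

theorem result (m n : ℕ) (hm : 2 ≤ m) (hn : 2 ≤ n) (r : Fin m → ℕ) (c : Fin n → ℕ)
    (f : Omega r c → ℝ) :
    2 / ((n : ℝ) * (n - 1))
        * ((1 / 2 : ℝ) * ∑ X, ∑ Y, rowPairChain r c X Y * (f X - f Y) ^ 2)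
      ≤ (1 / 2 : ℝ) * ∑ X, ∑ Y, blockChain r c X Y * (f X - f Y) ^ 2 :=
  block_comparison hm hn r c f

end Vale.Agent.Results.P328.B_BlockComparison
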