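import Vale.Agent.H88.CT.Final
import Vale.Agent.H91.CT.Transfer

/-!
P328, conditional result for the row-pair heat-bath chain: the three-row spectral-gap hypothesis
implies an explicit polynomial mixing time of the lazy chain that resamples two whole rows, on
every class of `m x n` contingency tables.
-/

namespace Vale.Agent.Results.P328.C_RowPairChain

open Finset Vale.Agent.H88.CT

theorem result (hyp : ThreeRowGap) (m n : ℕ) (hm : 2 ≤ m)
    (r : Fin m → ℕ) (c : Fin n → ℕ) (ε : ℝ) (hε : 0 < ε) (t : ℕ)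
    (ht : (m : ℝ) * (m - 1) * ((m : ℝ) * ∑ j, Real.log ((c j : ℝ) + 1)
      + 2 * Real.log (1 / ε)) ≤ t)
    (X : Omega r c) :
    (1 / 2 : ℝ) * ∑ Y, |(((1 / 2 : ℝ) • (1 + rowPairChain r c)) ^ t) X Y
        - 1 / (Fintype.card (Omega r c) : ℝ)| ≤ ε :=
  rowPair_mixing_time (Vale.Agent.H91.CT.tripleHyp_of_threeRowGap hyp) hm r c ε hε t ht X

end Vale.Agent.Results.P328.C_RowPairChain
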