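import Vale.Agent.H91.CT.FinalAC

/-!
P328, conditional result: one explicit inequality on classes of two-rowed contingency tables
implies the spectral gap `1 / (2 C(m,2) C(n,2))` and an explicit polynomial mixing time of the
lazy `2 x 2` heat-bath chain on every class of `m x n` contingency tables, for all `m`, `n` and
all margins.
-/

namespace Vale.Agent.Results.P328.D_TwoRowSurplus

open Finset Vale.Agent.H90 Vale.Agent.H88.CT Vale.Agent.H91.CT

theorem result (hyp : SurHyp2) (m n : ℕ) (hm : 2 ≤ m) (hn : 2 ≤ n)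
    (r : Fin m → ℕ) (c : Fin n → ℕ) :
    (∀ f : Omega r c → ℝ, ∑ X, f X = 0 →
      2 / ((m : ℝ) * (m - 1) * ((n : ℝ) * (n - 1))) * ∑ X, f X ^ 2
        ≤ (1 / 2 : ℝ) * ∑ X, ∑ Y, blockChain r c X Y * (f X - f Y) ^ 2) ∧
    ∀ (k t : ℕ), m ^ 2 * n ^ 2 * (m * n * (Nat.log 2 (∑ i, r i) + 1) + 2 * k) ≤ t →
      ∀ X : Omega r c,
        (1 / 2 : ℝ) * ∑ Y, |(((1 / 2 : ℝ) • (1 + blockChain r c)) ^ t) X Y
          - 1 / (Fintype.card (Omega r c) : ℝ)| ≤ (1 / 2 : ℝ) ^ k :=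
  main_sur2 hyp hm hn r c

end Vale.Agent.Results.P328.D_TwoRowSurplus
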